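import Vale.Agent.P048.Main

namespace Vale.Agent.Results.P048.CycleClique

/-- For all `m ≥ n ≥ 3` with `(m, n) ≠ (3, 3)`, the least `N` such that every red-blue colouring
of the complete graph on `N` vertices (red graph `G`, blue graph `Gᶜ`) has a red cycle on `m`
vertices or a blue complete graph on `n` vertices is `(m - 1) * (n - 1) + 1`. -/
theorem result (m n : ℕ) (hn : 3 ≤ n) (hmn : n ≤ m) (h : (m, n) ≠ (3, 3)) :
    IsLeast {N : ℕ | ∀ G : SimpleGraph (Fin N),
      (SimpleGraph.cycleGraph m).IsContained G ∨ (⊤ : SimpleGraph (Fin n)).IsContained Gᶜ}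
      ((m - 1) * (n - 1) + 1) :=
  Vale.Agent.P048.main m n hn hmn h

end Vale.Agent.Results.P048.CycleClique
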